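import Vale.Agent.Lib.P254.TowerFew

set_option autoImplicit false

namespace Vale.Agent.Results.P254.AtMostDPlusTwoVertices

open Vale.Agent.Lib.P254

/-- The strong isotropic constant conjecture for all polytopes with at most `d + 2` vertices, in
every dimension `d = n + 1`, with the exact value of the isotropic constant.

(1) Every `m`-simplex of `ℝ^m` (convex hull of `m + 1` affinely independent points) has the
isotropic constant of the standard simplex `{x : x_i ≥ 0, ∑ x_i ≤ 1}`, which is therefore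
`L_{Δ_m}`.

(2) If `p_0, …, p_(n+2)` are points of `ℝ^(n+1)` (repetitions allowed) whose convex hull `K` has
nonempty interior, then `L_K ≤ L_{Δ_(n+1)}`, with equality if and only if `K` is a simplex.

(3) If `u_0, …, u_(n+1) ∈ ℝ^(n+1)` are affinely independent, `∑ c_i = 1` and `z = ∑ c_i u_i`, then
`K = conv(z, u_0, …, u_(n+1))` is a convex body with
`L_K^(2(n+1)) = L_{Δ_(n+1)}^(2(n+1)) · (1 - (1 - A / P^2) (1 - B / P^2))`, where
`P = ∑ max(c_i, 0)`, `A = ∑ max(c_i, 0)^2`, `B = 1 + ∑ min(c_i, 0)^2`; and `K` is a simplex if and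
only if all `c_i ≥ 0` or at most one `c_i` is positive. -/
theorem result :
    (∀ (m : ℕ) (S : Set (Fin m → ℝ)), IsSimplex S → isoConst S = isoConst (solidSimplex m)) ∧
    (∀ (n : ℕ) (p : Fin (n + 3) → (Fin (n + 1) → ℝ)),
      (interior (convexHull ℝ (Set.range p))).Nonempty →
      isoConst (convexHull ℝ (Set.range p)) ≤ isoConst (solidSimplex (n + 1)) ∧
      (isoConst (convexHull ℝ (Set.range p)) = isoConst (solidSimplex (n + 1)) ↔
        IsSimplex (convexHull ℝ (Set.range p)))) ∧
    (∀ (n : ℕ) (u : Fin (n + 2) → (Fin (n + 1) → ℝ)) (c : Fin (n + 2) → ℝ),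
      AffineIndependent ℝ u → ∑ i, c i = 1 →
      IsConvexBody (convexHull ℝ (insert (∑ i, c i • u i) (Set.range u))) ∧
      isoConst (convexHull ℝ (insert (∑ i, c i • u i) (Set.range u))) ^ (2 * (n + 1))
        = isoConst (solidSimplex (n + 1)) ^ (2 * (n + 1))
          * (1 - (1 - (∑ i, (max (c i) 0) ^ 2) / (∑ i, max (c i) 0) ^ 2)
              * (1 - (1 + ∑ i, (min (c i) 0) ^ 2) / (∑ i, max (c i) 0) ^ 2)) ∧
      (IsSimplex (convexHull ℝ (insert (∑ i, c i • u i) (Set.range u))) ↔
        ((∀ i, 0 ≤ c i) ∨ ∃ i, ∀ j, j ≠ i → c j ≤ 0))) := by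
  refine ⟨fun m S hS => isoConst_of_isSimplex hS, fun n p hint => few_points p hint, ?_⟩
  intro n u c hind hc1
  obtain ⟨hbody, hpow, -, -⟩ := plus_final hind hc1
  exact ⟨hbody, hpow, plus_isSimplex_iff hind hc1⟩

end Vale.Agent.Results.P254.AtMostDPlusTwoVertices
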