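import Vale.Agent.Lib.P254.H3.BipGeneral
import Vale.Agent.Lib.P254.H3.BipExtra

/-!
# P254: bipyramids (double cones) over arbitrary convex bodies

Let `K ⊆ ℝ^n` be a convex body, `q ∈ K`, and let `a, a' ∈ ℝ^(n+1)` be two points whose segment
crosses the hyperplane `x_0 = 0` at the point `(0, q)` of the base `{0} × K`.  For the double cone
`T = conv({a, a'} ∪ {0} × K)` we prove the exact formula
`L_T^(2(n+1)) = c_n L_K^(2n) (1 - 2 s (1 - s) (n (n + 2) - ρ) / ((n + 1) (n + 2)))`,
where `ρ = (b_K - q)ᵀ Σ_K⁻¹ (b_K - q)` satisfies `0 ≤ ρ ≤ n (n + 2)` (`Σ_K` is nonsingular, and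
`ρ` is given as `(b_K - q) · y` for the solution `y` of `Σ_K y = b_K - q`); consequently the inequality
`L_K ≤ L_{Δ_n}` of the strong isotropic constant conjecture is inherited by all such double cones.
-/

namespace Vale.Agent.Results.P254.BipyramidClosure
open Vale.Agent.Lib.P254 Vale.Agent.Lib.P254.H3 Set

theorem result :
    ∀ (n : ℕ), 1 ≤ n → ∀ (K : Set (Fin n → ℝ)), IsConvexBody K → ∀ q ∈ K,
      (covMatrix K).det ≠ 0 ∧ ∃ (y : Fin n → ℝ) (ρ : ℝ),
        (covMatrix K).mulVec y = (fun i => centroid K i - q i) ∧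
        ρ = dotProduct (fun i => centroid K i - q i) y ∧ 0 ≤ ρ ∧ ρ ≤ (n:ℝ) * ((n:ℝ) + 2) ∧
        ∀ (a a' : Fin (n + 1) → ℝ) (s : ℝ), 0 < s → s < 1 → a 0 ≠ 0 →
          (1 - s) • a + s • a' = Fin.cons 0 q →
          ∀ T : Set (Fin (n + 1) → ℝ),
            T = convexHull ℝ (insert a (insert a'
              ((fun k : Fin n → ℝ => (Fin.cons 0 k : Fin (n + 1) → ℝ)) '' K))) →
            IsConvexBody T ∧
            isoConst T ^ (2 * (n + 1))
              = ((n:ℝ) + 1) ^ (n + 3) / (((n:ℝ) + 3) ^ (n + 1) * ((n:ℝ) + 2) ^ 2)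
                * isoConst K ^ (2 * n)
                * (1 - 2 * s * (1 - s)
                    * (((n:ℝ) * ((n:ℝ) + 2) - ρ) / (((n:ℝ) + 1) * ((n:ℝ) + 2)))) ∧
            isoConst T ^ (2 * (n + 1))
              ≤ ((n:ℝ) + 1) ^ (n + 3) / (((n:ℝ) + 3) ^ (n + 1) * ((n:ℝ) + 2) ^ 2)
                * isoConst K ^ (2 * n) ∧
            (isoConst T ^ (2 * (n + 1))
                = ((n:ℝ) + 1) ^ (n + 3) / (((n:ℝ) + 3) ^ (n + 1) * ((n:ℝ) + 2) ^ 2)
                  * isoConst K ^ (2 * n)
              ↔ ρ = (n:ℝ) * ((n:ℝ) + 2)) ∧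
            (isoConst K ≤ isoConst (solidSimplex n) →
              isoConst T ≤ isoConst (solidSimplex (n + 1)) ∧
              (isoConst T = isoConst (solidSimplex (n + 1)) ↔
                isoConst K = isoConst (solidSimplex n) ∧ ρ = (n:ℝ) * ((n:ℝ) + 2)) ∧
              ((isoConst K = isoConst (solidSimplex n) → IsSimplex K) →
                isoConst T = isoConst (solidSimplex (n + 1)) → IsSimplex T)) ∧
            (∀ p : Fin (n + 2) → (Fin n → ℝ), K = convexHull ℝ (range p) →
              isoConst T ≤ isoConst (solidSimplex (n + 1)) ∧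
              (isoConst T = isoConst (solidSimplex (n + 1)) ↔ IsSimplex T)) := by
  intro n hn1 K hK q hq
  have hn : n ≠ 0 := by omega
  obtain ⟨y, ρ, hy, hρ, hρ0, hρ1, H⟩ := dcone_main hK hq
  refine ⟨cov_det_ne_zero hK, y, ρ, hy, hρ, hρ0, hρ1, ?_⟩
  intro a a' s hs0 hs1 ha hcross T hT
  subst hT
  obtain ⟨hbody, hlam⟩ := H a a' s hs0 hs1 ha hcross
  set T : Set (Fin (n + 1) → ℝ) := convexHull ℝ (insert a (insert a'
    ((fun k : Fin n → ℝ => (Fin.cons 0 k : Fin (n + 1) → ℝ)) '' K))) with hTdef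
  have hpowT : isoConst T ^ (2 * (n + 1)) = lam T :=
    isoConst_pow (Nat.succ_ne_zero _) (lam_nonneg_body hbody)
  have hpowK : isoConst K ^ (2 * n) = lam K := isoConst_pow hn (lam_nonneg_body hK)
  have hcn : ((n:ℝ) + 1) ^ (n + 3) / (((n:ℝ) + 3) ^ (n + 1) * ((n:ℝ) + 2) ^ 2) = cn n := rfl
  have hcpos : 0 < cn n := cn_pos n
  have hlK : 0 < lam K := lam_pos_body hK
  have hN : (0:ℝ) < n := Nat.cast_pos.mpr (Nat.pos_of_ne_zero hn)
  -- the parameter θ and the factor f
  set θ : ℝ := ((n:ℝ) * ((n:ℝ) + 2) - ρ) / (((n:ℝ) + 1) * ((n:ℝ) + 2)) with hθ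
  have hden : (0:ℝ) < ((n:ℝ) + 1) * ((n:ℝ) + 2) := by positivity
  have hθ0 : 0 ≤ θ := div_nonneg (by linarith) hden.le
  have hθ1 : θ ≤ 1 := by
    rw [hθ, div_le_one hden]
    nlinarith
  have hθz : θ = 0 ↔ ρ = (n:ℝ) * ((n:ℝ) + 2) := by
    rw [hθ, div_eq_zero_iff]
    constructor
    · rintro (h | h)
      · linarith
      · exact absurd h hden.ne'
    · intro h
      left; linarith
  have hss : 0 < s * (1 - s) := mul_pos hs0 (by linarith)
  have hss4 : s * (1 - s) ≤ 1 / 4 := by nlinarith [sq_nonneg (s - 1 / 2)]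
  set f : ℝ := 1 - 2 * s * (1 - s) * θ with hf
  have hf1 : f ≤ 1 := by
    have : 0 ≤ 2 * s * (1 - s) * θ := by
      have : 0 ≤ s * (1 - s) * θ := mul_nonneg hss.le hθ0
      linarith
    linarith
  have hf0 : 0 < f := by
    have : s * (1 - s) * θ ≤ 1 / 4 := by nlinarith
    linarith
  have hf1iff : f = 1 ↔ ρ = (n:ℝ) * ((n:ℝ) + 2) := by
    rw [← hθz]
    constructor
    · intro h
      have h2 : 2 * (s * (1 - s)) * θ = 0 := by linarith
      rcases mul_eq_zero.mp h2 with h3 | h3
      · linarith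
      · exact h3
    · intro h
      rw [hf, h]; ring
  have hlamT : lam T = cn n * lam K * f := hlam
  have hcl : 0 < cn n * lam K := mul_pos hcpos hlK
  refine ⟨hbody, ?_, ?_, ?_, ?_, ?_⟩
  · rw [hpowT, hpowK, hcn, hlamT]
  · rw [hpowT, hpowK, hcn, hlamT]
    nlinarith
  · rw [hpowT, hpowK, hcn, hlamT, ← hf1iff]
    constructor
    · intro h
      have h2 : cn n * lam K * (f - 1) = 0 := by linarith
      rcases mul_eq_zero.mp h2 with h3 | h3
      · exact absurd h3 hcl.ne'
      · linarith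
    · intro h
      rw [h, mul_one]
  · intro hle
    have hS : IsConvexBody (solidSimplex n) := solidSimplex_body n
    have hS1 : IsConvexBody (solidSimplex (n + 1)) := solidSimplex_body (n + 1)
    have hleL : lam K ≤ lam (solidSimplex n) :=
      (isoConst_le_iff hn (lam_nonneg_body hK) (lam_nonneg_body hS)).mp hle
    have hsucc : lam (solidSimplex (n + 1)) = cn n * lam (solidSimplex n) :=
      lam_solidSimplex_succ n
    refine ⟨?_, ?_, ?_⟩
    · rw [isoConst_le_iff (Nat.succ_ne_zero _) (lam_nonneg_body hbody) (lam_nonneg_body hS1),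
        hlamT, hsucc]
      have h1 : cn n * lam K * f ≤ cn n * lam K := by nlinarith
      have h2 : cn n * lam K ≤ cn n * lam (solidSimplex n) :=
        mul_le_mul_of_nonneg_left hleL hcpos.le
      linarith
    · rw [isoConst_eq_iff (Nat.succ_ne_zero _) (lam_nonneg_body hbody) (lam_nonneg_body hS1),
        isoConst_eq_iff hn (lam_nonneg_body hK) (lam_nonneg_body hS), hlamT, hsucc, ← hf1iff]
      constructor
      · intro h
        have h1 : lam K * f = lam (solidSimplex n) := by
          have : cn n * (lam K * f) = cn n * lam (solidSimplex n) := by linarith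
          exact mul_left_cancel₀ hcpos.ne' this
        have h2 : lam K * f ≤ lam K := by nlinarith
        have h3 : lam K = lam (solidSimplex n) := le_antisymm hleL (by linarith)
        refine ⟨h3, ?_⟩
        have h4 : lam K * (f - 1) = 0 := by linarith
        rcases mul_eq_zero.mp h4 with h5 | h5
        · exact absurd h5 hlK.ne'
        · linarith
      · rintro ⟨h1, h2⟩
        rw [h1, h2, mul_one]
    · intro heq hTeq
      exact (dcone_extra hn hK hq hs0 hs1 ha hcross).1 hle heq hTeq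
  · intro p hKp
    exact (dcone_extra hn hK hq hs0 hs1 ha hcross).2 p hKp

end Vale.Agent.Results.P254.BipyramidClosure
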