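import Vale.Agent.Lib.P254.BipIntrinsic

set_option autoImplicit false

namespace Vale.Agent.Results.P254.BipyramidsIntrinsic

open Vale.Agent.Lib.P254

/-- The strong isotropic constant conjecture for the convex hull of a simplex and a segment
crossing it, in every dimension, with an exact formula.

(1) Every `m`-simplex of `ℝ^m` (convex hull of `m + 1` affinely independent points) has the
isotropic constant of the standard simplex `{x : x_i ≥ 0, ∑ x_i ≤ 1}`, which is therefore
`L_{Δ_m}`.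

(2) Let `v_0, …, v_n, a ∈ ℝ^(n+1)` be affinely independent, and let `a'` be a point such that the
segment `[a, a']` crosses the simplex `conv(v_0, …, v_n)`: `(1 - s) a + s a' = ∑ β_i v_i` with
`0 < s < 1`, `β_i ≥ 0`, `∑ β_i = 1`. Then `K = conv(a, a', v_0, …, v_n)` is a convex body and
`L_K^(2(n+1)) = L_{Δ_(n+1)}^(2(n+1)) · (1 - 2 s (1 - s) (1 - ∑ β_i^2))`. Hence
`L_K ≤ L_{Δ_(n+1)}`, with equality if and only if `∑ β_i^2 = 1` (the crossing point is a vertex
`v_i`). -/
theorem result :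
    (∀ (m : ℕ) (S : Set (Fin m → ℝ)), IsSimplex S → isoConst S = isoConst (solidSimplex m)) ∧
    (∀ (n : ℕ) (a a' : Fin (n + 1) → ℝ) (v : Fin (n + 1) → Fin (n + 1) → ℝ)
      (β : Fin (n + 1) → ℝ) (s : ℝ),
      AffineIndependent ℝ (Fin.cons a v : Fin (n + 2) → Fin (n + 1) → ℝ) →
      (∀ i, 0 ≤ β i) → ∑ i, β i = 1 → 0 < s → s < 1 →
      (1 - s) • a + s • a' = ∑ i, β i • v i →
      IsConvexBody (convexHull ℝ (insert a (insert a' (Set.range v)))) ∧
      isoConst (convexHull ℝ (insert a (insert a' (Set.range v)))) ^ (2 * (n + 1))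
        = isoConst (solidSimplex (n + 1)) ^ (2 * (n + 1))
          * (1 - 2 * s * (1 - s) * (1 - ∑ i, β i ^ 2)) ∧
      isoConst (convexHull ℝ (insert a (insert a' (Set.range v))))
        ≤ isoConst (solidSimplex (n + 1)) ∧
      (isoConst (convexHull ℝ (insert a (insert a' (Set.range v))))
          = isoConst (solidSimplex (n + 1)) ↔ ∑ i, β i ^ 2 = 1)) := by
  refine ⟨fun m S hS => isoConst_of_isSimplex hS, ?_⟩
  intro n a a' v β s hind hβ0 hβ1 hs0 hs1 hcross
  exact ⟨intrinsic_body hind hβ0 hβ1 hs0 hs1 hcross, intrinsic_pow hind hβ0 hβ1 hs0 hs1 hcross,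
    intrinsic_le hind hβ0 hβ1 hs0 hs1 hcross, intrinsic_eq_iff hind hβ0 hβ1 hs0 hs1 hcross⟩

end Vale.Agent.Results.P254.BipyramidsIntrinsic
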