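import Vale.Agent.Lib.P254.Simplex

set_option autoImplicit false

namespace Vale.Agent.Results.P254.DimensionReduction

open Vale.Agent.Lib.P254

/-- The strong isotropic constant conjecture is hereditary downward in the dimension, equality
case included.

(1) For `n ≥ 1` and a convex body `K ⊆ ℝ^n`, the pyramid `P(K) ⊆ ℝ^(n+1)` over `K` is a convex
body with `L_{P(K)}^(2(n+1)) = c_n · L_K^(2n)`, `c_n = (n+1)^(n+3) / ((n+3)^(n+1) (n+2)^2)`;
`L_K ≤ L_{Δ_n}` iff `L_{P(K)} ≤ L_{Δ_(n+1)}`, `L_K ≥ L_{Δ_n}` iff `L_{P(K)} ≥ L_{Δ_(n+1)}`, and if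
`P(K)` is a simplex then `K` is a simplex.
(2) The standard solid simplex is a simplex and a convex body, and the pyramid over it is the
standard solid simplex of the next dimension.
(3) If `1 ≤ n ≤ m` and the conjecture (inequality and equality case) holds for all convex bodies
of `ℝ^m`, then it holds for all convex bodies of `ℝ^n`.
(4) If `1 ≤ n ≤ m` and some convex body of `ℝ^n` is not a simplex but has `L_K ≥ L_{Δ_n}`, then
some convex body of `ℝ^m` is not a simplex but has `L ≥ L_{Δ_m}`. -/
theorem result :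
    (∀ n : ℕ, 1 ≤ n → ∀ K : Set (Fin n → ℝ), IsConvexBody K →
        IsConvexBody (pyramid K) ∧
        isoConst (pyramid K) ^ (2 * (n + 1)) = cn n * isoConst K ^ (2 * n) ∧
        (isoConst K ≤ isoConst (solidSimplex n) ↔
          isoConst (pyramid K) ≤ isoConst (solidSimplex (n + 1))) ∧
        (isoConst (solidSimplex n) ≤ isoConst K ↔
          isoConst (solidSimplex (n + 1)) ≤ isoConst (pyramid K)) ∧
        (IsSimplex (pyramid K) → IsSimplex K)) ∧
    (∀ n : ℕ, IsSimplex (solidSimplex n) ∧ IsConvexBody (solidSimplex n) ∧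
        pyramid (solidSimplex n) = solidSimplex (n + 1)) ∧
    (∀ n m : ℕ, 1 ≤ n → n ≤ m →
      (∀ K' : Set (Fin m → ℝ), IsConvexBody K' →
        isoConst K' ≤ isoConst (solidSimplex m) ∧
        (isoConst K' = isoConst (solidSimplex m) → IsSimplex K')) →
      ∀ K : Set (Fin n → ℝ), IsConvexBody K →
        isoConst K ≤ isoConst (solidSimplex n) ∧
        (isoConst K = isoConst (solidSimplex n) → IsSimplex K)) ∧
    (∀ n m : ℕ, 1 ≤ n → n ≤ m →
      (∃ K : Set (Fin n → ℝ), IsConvexBody K ∧ ¬ IsSimplex K ∧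
        isoConst (solidSimplex n) ≤ isoConst K) →
      ∃ K' : Set (Fin m → ℝ), IsConvexBody K' ∧ ¬ IsSimplex K' ∧
        isoConst (solidSimplex m) ≤ isoConst K') := by
  refine ⟨?_, ?_, ?_, ?_⟩
  · intro n hn K hK
    have hn0 : n ≠ 0 := by omega
    exact ⟨pyramid_body hK, pyramid_isoConst_pow hn0 hK, pyramid_compare_le hn0 hK,
      pyramid_compare_ge hn0 hK, isSimplex_of_pyramid hK⟩
  · intro n
    exact ⟨solidSimplex_isSimplex n, solidSimplex_body n, pyramid_solidSimplex n⟩
  · intro n m hn hnm
    induction m, hnm using Nat.le_induction with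
    | base => exact fun h => h
    | succ m hnm ih =>
      intro h
      have hm0 : m ≠ 0 := by omega
      apply ih
      intro K hK
      obtain ⟨h1, h2⟩ := h (pyramid K) (pyramid_body hK)
      exact ⟨(pyramid_compare_le hm0 hK).mpr h1,
        fun he => isSimplex_of_pyramid hK (h2 ((pyramid_compare_eq hm0 hK).mp he))⟩
  · intro n m hn hnm
    induction m, hnm using Nat.le_induction with
    | base => exact fun h => h
    | succ m hnm ih =>
      intro h
      have hm0 : m ≠ 0 := by omega
      obtain ⟨K, hK, hns, hle⟩ := ih h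
      exact ⟨pyramid K, pyramid_body hK, fun hs => hns (isSimplex_of_pyramid hK hs),
        (pyramid_compare_ge hm0 hK).mp hle⟩

end Vale.Agent.Results.P254.DimensionReduction
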