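import Vale.Agent.Lib.P254.BipClosure
import Vale.Agent.Lib.P254.FewFinset
import Vale.Agent.Results.P254.DimensionReduction

set_option autoImplicit false

namespace Vale.Agent.Results.P254.ClassTheorem

open Vale.Agent.Lib.P254

/-- The strong isotropic constant conjecture, with its equality case, on the class of convex
bodies generated from the polytopes with at most `d + 2` vertices by forming bipyramids.

(1) Every `m`-simplex of `ℝ^m` has the isotropic constant of the standard simplex
`{x : x_i ≥ 0, ∑ x_i ≤ 1}`, which is therefore `L_{Δ_m}`.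

(2) For every finite set `S` of at most `d + 2` points of `ℝ^d`, `d = n + 1 ≥ 1`, whose convex
hull `K` has nonempty interior (every polytope with at most `d + 2` vertices):
`L_K ≤ L_{Δ_d}`, with equality if and only if `K` is a simplex.

(3) For every convex body `K ⊆ ℝ^(n+1)`, every `q ∈ K` and all `a, a' ∈ ℝ^(n+2)`, `0 < s < 1`
with `a_0 ≠ 0` and `(1 - s) a + s a' = (0, q)` (the segment joining the apexes crosses the base
`{0} × K` at `(0, q)`), the bipyramid `T = conv({a, a'} ∪ {0} × K)` is a convex body; and if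
`L_K ≤ L_{Δ_(n+1)}` with equality only if `K` is a simplex, then `L_T ≤ L_{Δ_(n+2)}` with equality
only if `T` is a simplex.

(4) If `1 ≤ n ≤ m` and the conjecture (inequality and equality case) holds for all convex bodies
of `ℝ^m`, then it holds for all convex bodies of `ℝ^n`. -/
theorem result :
    (∀ (m : ℕ) (S : Set (Fin m → ℝ)), IsSimplex S → isoConst S = isoConst (solidSimplex m)) ∧
    (∀ (n : ℕ) (S : Finset (Fin (n + 1) → ℝ)), S.card ≤ n + 3 →
      (interior (convexHull ℝ (S : Set (Fin (n + 1) → ℝ)))).Nonempty →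
      isoConst (convexHull ℝ (S : Set (Fin (n + 1) → ℝ))) ≤ isoConst (solidSimplex (n + 1)) ∧
      (isoConst (convexHull ℝ (S : Set (Fin (n + 1) → ℝ))) = isoConst (solidSimplex (n + 1)) ↔
        IsSimplex (convexHull ℝ (S : Set (Fin (n + 1) → ℝ))))) ∧
    (∀ (n : ℕ) (K : Set (Fin (n + 1) → ℝ)) (q : Fin (n + 1) → ℝ) (a a' : Fin (n + 2) → ℝ)
      (s : ℝ),
      IsConvexBody K → q ∈ K → a 0 ≠ 0 → 0 < s → s < 1 →
      (1 - s) • a + s • a' = Fin.cons 0 q →
      IsConvexBody (convexHull ℝ (insert a (insert a'
        ((fun k : Fin (n + 1) → ℝ => (Fin.cons 0 k : Fin (n + 2) → ℝ)) '' K)))) ∧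
      (isoConst K ≤ isoConst (solidSimplex (n + 1)) →
        (isoConst K = isoConst (solidSimplex (n + 1)) → IsSimplex K) →
        isoConst (convexHull ℝ (insert a (insert a'
            ((fun k : Fin (n + 1) → ℝ => (Fin.cons 0 k : Fin (n + 2) → ℝ)) '' K))))
          ≤ isoConst (solidSimplex (n + 2)) ∧
        (isoConst (convexHull ℝ (insert a (insert a'
            ((fun k : Fin (n + 1) → ℝ => (Fin.cons 0 k : Fin (n + 2) → ℝ)) '' K))))
          = isoConst (solidSimplex (n + 2)) →
          IsSimplex (convexHull ℝ (insert a (insert a'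
            ((fun k : Fin (n + 1) → ℝ => (Fin.cons 0 k : Fin (n + 2) → ℝ)) '' K))))))) ∧
    (∀ n m : ℕ, 1 ≤ n → n ≤ m →
      (∀ K' : Set (Fin m → ℝ), IsConvexBody K' →
        isoConst K' ≤ isoConst (solidSimplex m) ∧
        (isoConst K' = isoConst (solidSimplex m) → IsSimplex K')) →
      ∀ K : Set (Fin n → ℝ), IsConvexBody K →
        isoConst K ≤ isoConst (solidSimplex n) ∧
        (isoConst K = isoConst (solidSimplex n) → IsSimplex K)) := by
  refine ⟨fun m S hS => isoConst_of_isSimplex hS,
    fun n S hcard hint => few_points_finset S hcard hint, ?_,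
    Vale.Agent.Results.P254.DimensionReduction.result.2.2.1⟩
  intro n K q a a' s hK hq ha hs0 hs1 hcross
  refine ⟨doubleCone_body hK hq ha hs0 hs1 hcross, ?_⟩
  intro hle heq
  exact ⟨doubleCone_inherit hK hq ha hs0 hs1 hcross hle,
    fun hT => doubleCone_eq_case hK hq ha hs0 hs1 hcross hle heq hT⟩

end Vale.Agent.Results.P254.ClassTheorem
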