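import Vale.Agent.Lib.P254.Final

set_option autoImplicit false

namespace Vale.Agent.Results.P254.PyramidReduction

open Vale.Agent.Lib.P254

/-- Pyramid reduction for the strong isotropic constant conjecture. For `n ≥ 1` and every convex
body `K ⊆ ℝ^n`, the pyramid `P(K) ⊆ ℝ^(n+1)` over `K` is a convex body with
`L_{P(K)}^(2(n+1)) = c_n · L_K^(2n)`, where `c_n = (n+1)^(n+3) / ((n+3)^(n+1) (n+2)^2)`; the
pyramid over the standard `n`-simplex is the standard `(n+1)`-simplex, and
`L_{Δ_n}^(2n) = (n!)^2 / ((n+1)^(n+1) (n+2)^n)`. Hence `L_K > L_{Δ_n}` iff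
`L_{P(K)} > L_{Δ_(n+1)}`, `L_K ≤ L_{Δ_n}` iff `L_{P(K)} ≤ L_{Δ_(n+1)}`, and the inequality
`L ≤ L_Δ` for all convex bodies of `ℝ^(n+1)` implies it for all convex bodies of `ℝ^n`. -/
theorem result (n : ℕ) (hn : 1 ≤ n) :
    (∀ K : Set (Fin n → ℝ), IsConvexBody K →
        IsConvexBody (pyramid K) ∧
        isoConst (pyramid K) ^ (2 * (n + 1)) = cn n * isoConst K ^ (2 * n) ∧
        (isoConst (solidSimplex n) < isoConst K ↔
          isoConst (solidSimplex (n + 1)) < isoConst (pyramid K)) ∧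
        (isoConst K ≤ isoConst (solidSimplex n) ↔
          isoConst (pyramid K) ≤ isoConst (solidSimplex (n + 1)))) ∧
    IsConvexBody (solidSimplex n) ∧
    pyramid (solidSimplex n) = solidSimplex (n + 1) ∧
    isoConst (solidSimplex n) ^ (2 * n)
      = (n.factorial : ℝ) ^ 2 / (((n : ℝ) + 1) ^ (n + 1) * ((n : ℝ) + 2) ^ n) ∧
    ((∀ K' : Set (Fin (n + 1) → ℝ), IsConvexBody K' →
        isoConst K' ≤ isoConst (solidSimplex (n + 1))) →
      ∀ K : Set (Fin n → ℝ), IsConvexBody K → isoConst K ≤ isoConst (solidSimplex n)) := by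
  have hn0 : n ≠ 0 := by omega
  refine ⟨fun K hK => ⟨pyramid_body hK, pyramid_isoConst_pow hn0 hK, pyramid_compare_lt hn0 hK,
    pyramid_compare_le hn0 hK⟩, solidSimplex_body n, pyramid_solidSimplex n, ?_, ?_⟩
  · rw [isoConst_pow hn0 (lam_nonneg_body (solidSimplex_body n)), lam_solidSimplex]
  · intro h K hK
    exact (pyramid_compare_le hn0 hK).mpr (h (pyramid K) (pyramid_body hK))

end Vale.Agent.Results.P254.PyramidReduction
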