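import Vale.Agent.Lib.P254.BipFinal

set_option autoImplicit false

namespace Vale.Agent.Results.P254.SimplexBipyramids

open Vale.Agent.Lib.P254

/-- The strong isotropic constant conjecture for bipyramids over simplices, with an exact formula.

Let `S_n = {x ∈ ℝ^n : x_i ≥ 0, ∑ x_i ≤ 1}` be the standard simplex, `p ∈ S_n` and `t > 0`. Let
`T ⊆ ℝ^(n+1)` be the bipyramid over the simplex `S_n - p` (placed in the hyperplane `x_0 = 0`)
with apexes `(1, 0, …, 0)` and `(-t, 0, …, 0)`; the segment joining the apexes crosses the base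
simplex at the origin, i.e. at the point `p` of `S_n`. Then `T` is a convex body,
`L_T^(2(n+1)) = L_{Δ_(n+1)}^(2(n+1)) · (1 - 2t/(1+t)^2 · (2 ∑ p_i - ∑ p_i^2 - (∑ p_i)^2))`,
hence `L_T ≤ L_{Δ_(n+1)}`, with equality if and only if `p` is a vertex of `S_n`. -/
theorem result (n : ℕ) (p : Fin n → ℝ) (hp : p ∈ solidSimplex n) (t : ℝ) (ht : 0 < t) :
    IsConvexBody (bipyramid t (shiftedSimplex n p)) ∧
    isoConst (bipyramid t (shiftedSimplex n p)) ^ (2 * (n + 1))
      = isoConst (solidSimplex (n + 1)) ^ (2 * (n + 1))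
        * (1 - 2 * t / (1 + t) ^ 2 * (2 * ∑ i, p i - ∑ i, p i ^ 2 - (∑ i, p i) ^ 2)) ∧
    isoConst (bipyramid t (shiftedSimplex n p)) ≤ isoConst (solidSimplex (n + 1)) ∧
    (isoConst (bipyramid t (shiftedSimplex n p)) = isoConst (solidSimplex (n + 1)) ↔
      (p = 0 ∨ ∃ i, p = Pi.single i 1)) :=
  ⟨bipSimplex_body hp ht, bipSimplex_pow hp ht, bipSimplex_le hp ht, bipSimplex_eq_iff hp ht⟩

end Vale.Agent.Results.P254.SimplexBipyramids
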